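import Vale.Agent.P246.R2.H429.Defs4
import Vale.Agent.P246.T.A1
import Vale.Agent.P246.T.PR2

/-! # P246: row TW5 (helper206): the algebraic complex of the covering of the wedge -/

set_option linter.all false

namespace Vale.Agent.P246.R2.H206

open Topology Metric Set Vale.Agent.P246 Vale.Agent.P246.T Vale.Agent.P246.H429

section Alg

variable {R : Type} [Ring R] {S S' : ℕ → Type} [∀ n, AddCommGroup (S n)]
  [∀ n, Module R (S n)] [∀ n, AddCommGroup (S' n)] [∀ n, Module R (S' n)]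
  {d : ∀ n, S (n + 1) →ₗ[R] S n} {d' : ∀ n, S' (n + 1) →ₗ[R] S' n}
  (j : ∀ n, S n →ₗ[R] S' n)

theorem dcyc_iff (hj : ∀ n, Function.Injective (j n))
    (hc : ∀ n x, d' n (j (n + 1) x) = j n (d n x)) (n : ℕ) (x : S n) :
    DCyc S' d' n (j n x) ↔ DCyc S d n x := by
  cases n with
  | zero => exact Iff.rfl
  | succ n =>
    change d' n (j (n + 1) x) = 0 ↔ d n x = 0
    rw [hc, map_eq_zero_iff _ (hj n)]

theorem transport (hj : ∀ n, Function.Injective (j n))
    (hc : ∀ n x, d' n (j (n + 1) x) = j n (d n x)) {A : ∀ n, Submodule R (S' n)}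
    (hA : ∀ n, LinearMap.range (j n) = A n) {P : ∀ n, Submodule R (S n)}
    (hP : IsFinModel S d (fun _ => ⊤) P) :
    IsFinModel S' d' A (fun n => (P n).map (j n)) := by
  have hf := hP.free
  have hfi := hP.fin
  exact
  { le := fun n => by
      rw [← hA]; exact LinearMap.map_le_range
    d_mem := fun n x hx => by
      obtain ⟨x0, hx0, rfl⟩ := hx
      rw [hc]
      exact Submodule.mem_map_of_mem (hP.d_mem n x0 hx0)
    inj := fun n x hx hcy ⟨y, hy, hyx⟩ => by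
      obtain ⟨x0, hx0, rfl⟩ := hx
      rw [← hA] at hy
      obtain ⟨y0, rfl⟩ := hy
      rw [hc] at hyx
      obtain ⟨y1, hy1, h1⟩ := hP.inj n x0 hx0 ((dcyc_iff j hj hc n x0).1 hcy)
        ⟨y0, trivial, hj n hyx⟩
      exact ⟨j (n + 1) y1, Submodule.mem_map_of_mem hy1, by rw [hc, h1]⟩
    surj := fun n x hx hcy => by
      rw [← hA] at hx
      obtain ⟨x0, rfl⟩ := hx
      obtain ⟨y, hy, hyc, z, -, h⟩ := hP.surj n x0 trivial ((dcyc_iff j hj hc n x0).1 hcy)
      refine ⟨j n y, Submodule.mem_map_of_mem hy, (dcyc_iff j hj hc n y).2 hyc, j (n + 1) z,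
        ?_, ?_⟩
      · rw [← hA]; exact ⟨z, rfl⟩
      · rw [hc, h, map_add]
    free := fun n => Module.Free.of_equiv ((P n).equivMapOfInjective (j n) (hj n))
    fin := fun n => Module.Finite.equiv ((P n).equivMapOfInjective (j n) (hj n))
    bdd := by
      obtain ⟨N, hN⟩ := hP.bdd
      exact ⟨N, fun n hn => by rw [hN n hn, Submodule.map_bot]⟩ }

variable {P : ∀ n, Submodule R (S n)} {Q : ∀ n, Submodule R (S' n)} {Z : Submodule R (S' 2)}

/-- exactness in high degrees -/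
theorem high (hj : ∀ n, Function.Injective (j n))
    (hc : ∀ n x, d' n (j (n + 1) x) = j n (d n x))
    (hP : IsModel S d (fun _ => ⊤) P) (hQ : ∀ n, n ≠ 2 → Q n = (P n).map (j n))
    (hh : ∀ i, 2 ≤ i → ∀ c : S (i + 1), d i c = 0 → ∃ b : S (i + 2), d (i + 1) b = c)
    (k : ℕ) (x : S' (k + 3)) (hx : x ∈ Q (k + 3)) (h0 : d' (k + 2) x = 0) :
    ∃ y ∈ Q (k + 4), d' (k + 3) y = x := by
  rw [hQ _ (by omega)] at hx
  obtain ⟨x0, hx0, rfl⟩ := hx
  rw [hc, map_eq_zero_iff _ (hj _)] at h0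
  obtain ⟨b, hb⟩ := hh (k + 2) (by omega) x0 h0
  obtain ⟨y, hy, h⟩ := hP.inj (k + 3) x0 hx0 h0 ⟨b, trivial, hb⟩
  refine ⟨j (k + 4) y, ?_, by rw [hc, h]⟩
  rw [hQ _ (by omega)]
  exact Submodule.mem_map_of_mem hy

/-- cohomology in degree three -/
theorem coh3 (hj : ∀ n, Function.Injective (j n))
    (hc : ∀ n x, d' n (j (n + 1) x) = j n (d n x))
    (hP : IsModel S d (fun _ => ⊤) P) (hd : ∀ n x, d n (d (n + 1) x) = 0)
    (hS : ∀ n, Module.Projective R (S n)) (hPp : ∀ n, Module.Projective R (P n))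
    (hQm : IsModel S' d' (fun _ => ⊤) Q)
    (hQ : ∀ n, n ≠ 2 → Q n = (P n).map (j n)) (hQ2 : Q 2 = (P 2).map (j 2) ⊔ Z)
    (hdis : Disjoint ((P 2).map (j 2)) Z)
    {M : Type} [AddCommGroup M] [Module R M]
    (hM : ∀ f : S 3 →ₗ[R] M, (∀ x, f (d 3 x) = 0) → ∃ h : S 2 →ₗ[R] M, ∀ x, f x = h (d 2 x))
    (φ : Q 3 →ₗ[R] M) (hφ : ∀ x, φ (A1x.dP hQm 3 x) = 0) :
    ∃ ψ : Q 2 →ₗ[R] M, ∀ x, φ x = ψ (A1x.dP hQm 2 x) := by
  have m3 : ∀ n, n ≠ 2 → ∀ x : P n, j n x ∈ Q n := fun n hn x => by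
    rw [hQ n hn]; exact Submodule.mem_map_of_mem x.2
  let f3 : P 3 →ₗ[R] Q 3 := ((j 3).comp (P 3).subtype).codRestrict (Q 3)
    (fun x => m3 3 (by norm_num) x)
  obtain ⟨ψ0, hψ0⟩ := A1x.coh hd hP hS hPp 2 hM (φ.comp f3) (fun x => by
    have e : f3 (A1x.dP hP 3 x) = A1x.dP hQm 3 ⟨j 4 x.1, m3 4 (by norm_num) x⟩ :=
      Subtype.ext (hc 3 x.1).symm
    rw [LinearMap.comp_apply, e, hφ])
  let e2 := (P 2).equivMapOfInjective (j 2) (hj 2)
  let F : S' 2 →ₗ.[R] M := ⟨(P 2).map (j 2), ψ0.comp e2.symm.toLinearMap⟩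
  let F0 : S' 2 →ₗ.[R] M := ⟨Z, 0⟩
  have hFF : ∀ (x : F.domain) (y : F0.domain), (x : S' 2) = y → F x = F0 y := by
    intro x y hxy
    have hx0 : x = 0 := by
      apply Subtype.ext
      have : (x : S' 2) ∈ (P 2).map (j 2) ⊓ Z := ⟨x.2, by rw [hxy]; exact y.2⟩
      rw [hdis.eq_bot] at this
      exact (Submodule.mem_bot R).1 this
    rw [hx0, LinearPMap.map_zero]
    rfl
  let F2 := F.sup F0 hFF
  refine ⟨F2.toFun.comp (LinearEquiv.ofEq _ _ hQ2).toLinearMap, fun x => ?_⟩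
  obtain ⟨x, hx⟩ := x
  have hx' := hx
  rw [hQ 3 (by norm_num)] at hx'
  obtain ⟨x0, hx0, rfl⟩ := hx'
  have h1 : φ ⟨j 3 x0, hx⟩ = ψ0 (A1x.dP hP 2 ⟨x0, hx0⟩) := hψ0 ⟨x0, hx0⟩
  rw [h1]
  have h2 := (LinearPMap.left_le_sup F F0 hFF).2
    (x := e2 (A1x.dP hP 2 ⟨x0, hx0⟩))
    (y := (LinearEquiv.ofEq _ _ hQ2) (A1x.dP hQm 2 ⟨j 3 x0, hx⟩)) (by
      change j 2 (d 2 x0) = d' 2 (j 3 x0)
      rw [hc])
  have h3 : F (e2 (A1x.dP hP 2 ⟨x0, hx0⟩)) = ψ0 (A1x.dP hP 2 ⟨x0, hx0⟩) := by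
    change ψ0 (e2.symm (e2 (A1x.dP hP 2 ⟨x0, hx0⟩))) = _
    rw [LinearEquiv.symm_apply_apply]
  rw [← h3]
  exact h2

/-- the rank of a direct sum -/
theorem rank_sup {M : Type} [AddCommGroup M] [Module R M] {A B : Submodule R M}
    (h : Disjoint A B) {a b : ℕ} (hA : Nonempty (A ≃ₗ[R] (Fin a → R)))
    (hB : Nonempty (B ≃ₗ[R] (Fin b → R))) :
    Nonempty ((A ⊔ B : Submodule R M) ≃ₗ[R] (Fin (a + b) → R)) := by
  obtain ⟨u⟩ := hA
  obtain ⟨v⟩ := hB
  let f : (A × B) →ₗ[R] M := A.subtype.coprod B.subtype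
  have hf : Function.Injective f := by
    rw [injective_iff_map_eq_zero]
    rintro ⟨x, y⟩ h1
    have h2 : (x : M) + y = 0 := h1
    have h3 : (x : M) ∈ A ⊓ B := ⟨x.2, by
      rw [eq_neg_of_add_eq_zero_left h2]; exact B.neg_mem y.2⟩
    rw [h.eq_bot, Submodule.mem_bot] at h3
    rw [h3, zero_add] at h2
    exact Prod.ext (Subtype.ext h3) (Subtype.ext h2)
  have hr : LinearMap.range f = A ⊔ B := by
    rw [LinearMap.range_coprod, Submodule.range_subtype, Submodule.range_subtype]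
  have e := (LinearEquiv.ofInjective f hf).trans (LinearEquiv.ofEq _ _ hr)
  exact ⟨e.symm.trans ((LinearEquiv.prodCongr u v).trans
    ((LinearEquiv.sumArrowLequivProdArrow (Fin a) (Fin b) R R).symm.trans
      (LinearEquiv.funCongrLeft R R finSumFinEquiv.symm)))⟩

end Alg

section Push

variable {G E F : Type} [Group G] [TopologicalSpace E] [MulAction G E] [ContinuousConstSMul G E]
  [TopologicalSpace F] [MulAction G F] [ContinuousConstSMul G F]

/-- the map of the chains -/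
noncomputable def pl (ι : C(E, F)) (h : ∀ (g : G) (e : E), ι (g • e) = g • ι e) (n : ℕ) :
    SC G n E →ₗ[ZG G] SC G n F where
  toFun c := SC.mk G (push ι n c.un)
  map_add' a b := map_add (push ι n) a.un b.un
  map_smul' r c := by
    apply SC.un_inj
    rw [RingHom.id_apply, SC.un_mk, SC.un_smul, SC.un_smul, SC.un_mk, Finsupp.sum, Finsupp.sum,
      map_sum]
    refine Finset.sum_congr rfl fun g _ => ?_
    have e : ι.comp (gm g) = (gm g).comp ι := ContinuousMap.ext fun x => h g x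
    rw [map_smul, ← push_comp, ← push_comp, e]

theorem pl_injective (ι : C(E, F)) (h : ∀ (g : G) (e : E), ι (g • e) = g • ι e)
    (hi : Function.Injective ι) (n : ℕ) : Function.Injective (pl ι h n) :=
  fun _ _ hab => PR.push_injective hi n hab

theorem pl_d (ι : C(E, F)) (h : ∀ (g : G) (e : E), ι (g • e) = g • ι e) (n : ℕ)
    (x : SC G (n + 1) E) : SC.d G n F (pl ι h (n + 1) x) = pl ι h n (SC.d G n E x) := by
  apply SC.un_inj
  change bd n (push ι (n + 1) x.un) = push ι n (bd n x.un)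
  rw [push_bd]

theorem exists_push {ι : C(E, F)} (hi : IsEmbedding ι) {n : ℕ} {c : Ch n F}
    (hc : c ∈ Con (range ι) n) : ∃ c' : Ch n E, push ι n c' = c := by
  refine PR.Con_ind (P := fun c => ∃ c' : Ch n E, push ι n c' = c) ⟨0, map_zero _⟩ ?_ ?_ hc
  · rintro a b ⟨a', rfl⟩ ⟨b', rfl⟩
    exact ⟨a' + b', map_add _ _ _⟩
  · intro m σ h
    refine ⟨Finsupp.single ⟨fun x => hi.toHomeomorph.symm ⟨σ x, h x⟩,
      hi.toHomeomorph.symm.continuous.comp (Continuous.subtype_mk σ.continuous _)⟩ m, ?_⟩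
    rw [push_single]
    congr 1
    ext x
    have h1 := congrArg Subtype.val (hi.toHomeomorph.apply_symm_apply ⟨σ x, h x⟩)
    exact h1

theorem pl_range {W : Type} [TopologicalSpace W] [T2Space W] {q : C(F, W)}
    (hq : IsQuotientCoveringMap q G) {C : Set W} {ι : C(E, F)} (hi : IsEmbedding ι)
    (hr : range ι = q ⁻¹' C) (h : ∀ (g : G) (e : E), ι (g • e) = g • ι e) (n : ℕ) :
    LinearMap.range (pl ι h n) = Step.SA hq C n := by
  ext x
  rw [Step.mem_SA, ← hr]
  constructor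
  · rintro ⟨y, rfl⟩
    exact push_mem (A := univ) (A' := range ι) (fun x _ => mem_range_self x) (PR.Con_univ y.un)
  · intro hx
    obtain ⟨c, hc⟩ := exists_push hi hx
    exact ⟨SC.mk G c, hc⟩

end Push

/-- the Euler sum -/
theorem euler_sum (ν : ℕ → ℕ) (N t : ℕ) (hN : ∀ i, N ≤ i → ν i = 0) :
    ∑ i ∈ Finset.range N, (-1 : ℤ) ^ i * ν i + t =
      ∑ i ∈ Finset.range (max N 3), (-1 : ℤ) ^ i * (Function.update ν 2 (ν 2 + t) i : ℕ) := by
  have h1 : ∑ i ∈ Finset.range N, (-1 : ℤ) ^ i * ν i =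
      ∑ i ∈ Finset.range (max N 3), (-1 : ℤ) ^ i * ν i := by
    refine Finset.sum_subset (Finset.range_subset_range.2 (le_max_left _ _)) fun i _ hi => ?_
    rw [hN i (by simpa using hi), Nat.cast_zero, mul_zero]
  have h2 : ∑ i ∈ Finset.range (max N 3),
      (-1 : ℤ) ^ i * (Function.update ν 2 (ν 2 + t) i : ℕ) =
      ∑ i ∈ Finset.range (max N 3), ((-1 : ℤ) ^ i * ν i + if i = 2 then (t : ℤ) else 0) := by
    refine Finset.sum_congr rfl fun i _ => ?_
    by_cases h : i = 2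
    · subst h
      rw [Function.update_self, if_pos rfl, Nat.cast_add]
      norm_num
    · rw [Function.update_of_ne h, if_neg h, add_zero]
  have h3 : (2 : ℕ) ∈ Finset.range (max N 3) := Finset.mem_range.2 (by omega)
  rw [h1, h2, Finset.sum_add_distrib, Finset.sum_ite_eq' _ _ _, if_pos h3]

/-- ROW TW5 -/
theorem specAlgW : SpecAlgW := by
  intro hCh G W E F _ _ _ _ _ _ _ _ _ _ _ q hq C t ι hC hS hi hr hι hh h3 hfree P ν N hP hν hN
  have hj := fun n => pl_injective ι hι hi.injective n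
  have hc := fun n (x : SC G (n + 1) E) => pl_d ι hι n x
  have hP' := transport (S := fun n => SC G n E) (S' := fun n => SC G n F)
    (d := fun n => SC.d G n E) (d' := fun n => SC.d G n F) (fun n => pl ι hι n) hj hc
    (A := Step.SA hq C) (fun n => pl_range hq hi hr hι n) hP
  obtain ⟨Z, hZ, hZd, hdis, hQ⟩ := hCh G W F q hq C t hC hS _ hP'
  set Q : ∀ n, Submodule (ZG G) (SC G n F) := Function.update
    (fun n => (P n).map (pl ι hι n)) 2 ((P 2).map (pl ι hι 2) ⊔ Z) with hQdef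
  have hQne : ∀ n, n ≠ 2 → Q n = (P n).map (pl ι hι n) := fun n hn => by
    rw [hQdef, Function.update_of_ne hn]
  have hQ2 : Q 2 = (P 2).map (pl ι hι 2) ⊔ Z := by
    rw [hQdef, Function.update_self]
  have hfP := hP.free
  have hdat : D2Data G (A1x.CC (S := fun n => SC G n F) (d := fun n => SC.d G n F) A1x.d_d
      hQ.toIsModel) :=
    { free := hQ.free
      finite := hQ.fin
      bounded := by
        obtain ⟨N, hN⟩ := hQ.bdd
        refine ⟨N, fun i hi => ?_⟩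
        have h := hN i hi
        change Subsingleton (Q i)
        rw [h]
        infer_instance
      homology_zero := by
        obtain ⟨ε, h1, h2, h3⟩ := A1x.hzero (fun c => A1h.aug_iff c) hQ.toIsModel
        refine ⟨ε, h1, h2, fun x => (h3 x).trans ?_⟩
        exact ⟨fun ⟨y, hy⟩ => ⟨y, (A1x.CC_d A1x.d_d hQ.toIsModel 0 y).trans hy⟩, fun ⟨y, hy⟩ =>
          ⟨y, (A1x.CC_d A1x.d_d hQ.toIsModel 0 y).symm.trans hy⟩⟩
      homology_one := by
        rw [exactAt_succ_iff]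
        intro x hx
        have hx' : A1x.dP hQ.toIsModel 0 x = 0 := (A1x.CC_d A1x.d_d hQ.toIsModel 0 x).symm.trans hx
        have hx2 : SC.d G 0 F (x : Q 1).1 = 0 := congrArg Subtype.val hx'
        obtain ⟨b, hb⟩ := A1h.h_one _ hx2
        obtain ⟨y, hy, h⟩ := hQ.inj 1 (x : Q 1).1 (x : Q 1).2 hx2 ⟨SC.mk G b, trivial, hb⟩
        exact ⟨⟨y, hy⟩, (A1x.CC_d A1x.d_d hQ.toIsModel 1 ⟨y, hy⟩).trans (Subtype.ext h)⟩
      homology_high := by
        intro i hi
        obtain ⟨k, rfl⟩ : ∃ k, i = k + 3 := ⟨i - 3, by omega⟩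
        rw [exactAt_succ_iff]
        intro x hx
        have hx' : A1x.dP hQ.toIsModel (k + 2) x = 0 :=
          (A1x.CC_d A1x.d_d hQ.toIsModel (k + 2) x).symm.trans hx
        have hx2 : SC.d G (k + 2) F (x : Q (k + 3)).1 = 0 := congrArg Subtype.val hx'
        obtain ⟨y, hy, h⟩ := high (S := fun n => SC G n E) (S' := fun n => SC G n F)
          (d := fun n => SC.d G n E) (d' := fun n => SC.d G n F) (fun n => pl ι hι n) hj hc
          hP.toIsModel hQne hh k (x : Q (k + 3)).1 (x : Q (k + 3)).2 hx2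
        exact ⟨⟨y, hy⟩, (A1x.CC_d A1x.d_d hQ.toIsModel (k + 3) ⟨y, hy⟩).trans (Subtype.ext h)⟩
      cohomology_three := by
        intro M _ _ _ φ hφ
        obtain ⟨ψ, hψ⟩ := coh3 (S := fun n => SC G n E) (S' := fun n => SC G n F)
          (d := fun n => SC.d G n E) (d' := fun n => SC.d G n F) (fun n => pl ι hι n) hj hc
          hP.toIsModel A1x.d_d (fun n => inferInstance) (fun n => inferInstance) hQ.toIsModel
          hQne hQ2 hdis (M := M) (fun f hf => A1x.h3_lin h3 f hf) φ (fun x => by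
            have := hφ x
            rwa [show ((A1x.CC (S := fun n => SC G n F) (d := fun n => SC.d G n F) A1x.d_d
              hQ.toIsModel).d 4 3) x = A1x.dP hQ.toIsModel 3 x from
                A1x.CC_d A1x.d_d hQ.toIsModel 3 x] at this)
        refine ⟨ψ, fun x => ?_⟩
        rw [show ((A1x.CC (S := fun n => SC G n F) (d := fun n => SC.d G n F) A1x.d_d
              hQ.toIsModel).d 3 2) x = A1x.dP hQ.toIsModel 2 x from
                A1x.CC_d A1x.d_d hQ.toIsModel 2 x]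
        exact hψ x }
  refine ⟨_, hdat.isD2, ⟨Function.update ν 2 (ν 2 + t), max N 3, fun i => ?_, fun i hi => ?_,
    euler_sum ν N t hN⟩, fun Pr ⟨e⟩ => A1x.qi hQ.toIsModel Pr e⟩
  · change Nonempty (Q i ≃ₗ[ZG G] (Fin (Function.update ν 2 (ν 2 + t) i) → ZG G))
    have hPi : ∀ i, Nonempty ((P i).map (pl ι hι i) ≃ₗ[ZG G] (Fin (ν i) → ZG G)) := fun i => by
      obtain ⟨u⟩ := hν i
      exact ⟨((P i).equivMapOfInjective (pl ι hι i) (hj i)).symm.trans u⟩
    by_cases h2 : i = 2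
    · subst h2
      rw [Function.update_self, hQ2]
      exact rank_sup hdis (hPi 2) hZ
    · rw [Function.update_of_ne h2, hQne i h2]
      exact hPi i
  · rw [Function.update_of_ne (by omega)]
    exact hN i (by omega)

end Vale.Agent.P246.R2.H206
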